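import Mathlib

open MeasureTheory Filter Topology Matrix

namespace Vale.Agent.Lib.P166

/-- The `±1` vector of a Boolean configuration. -/
def spin {N : ℕ} (s : Fin N → Bool) : Fin N → ℝ := fun i => if s i then 1 else -1

/-- The pressure `N⁻¹ log (2^{-N} ∑_σ exp (β/2 σᵀ J σ))` over `σ ∈ {-1,1}^N`. -/
noncomputable def pressure {N : ℕ} (β : ℝ) (J : Matrix (Fin N) (Fin N) ℝ) : ℝ :=
  (N : ℝ)⁻¹ * Real.log ((2 : ℝ)⁻¹ ^ N *
    ∑ s : Fin N → Bool, Real.exp (β / 2 * (spin s ⬝ᵥ (J *ᵥ spin s))))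

/-- The coupling matrix `J = Uᵀ diag(lam) U`. -/
def coupling {N : ℕ} (U : Matrix.orthogonalGroup (Fin N) ℝ) (lam : Fin N → ℝ) :
    Matrix (Fin N) (Fin N) ℝ :=
  (U : Matrix (Fin N) (Fin N) ℝ)ᵀ * Matrix.diagonal lam * (U : Matrix (Fin N) (Fin N) ℝ)

/-- The average of the pressure of `Uᵀ diag(lam) U` over `U` under the measure `ν` on `O(N)`. -/
noncomputable def avgPressure {N : ℕ} [MeasurableSpace (Matrix.orthogonalGroup (Fin N) ℝ)]
    (ν : Measure (Matrix.orthogonalGroup (Fin N) ℝ)) (β : ℝ) (lam : Fin N → ℝ) : ℝ :=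
  ∫ U, pressure β (coupling U lam) ∂ν

/-- The standing hypotheses of the problem on a spectrum sequence `lam N : Fin N → ℝ`: the empirical
measures converge weakly to `μ`, the largest entry tends to `b` and the smallest entry tends to
`a` (in the main theorem `a`, `b` are the minimum and maximum of the support of `μ`). -/
structure Admissible (μ : Measure ℝ) (a b : ℝ) (lam : ∀ N : ℕ, Fin N → ℝ) : Prop where
  weak : ∀ f : BoundedContinuousFunction ℝ ℝ,
    Tendsto (fun N : ℕ => (N : ℝ)⁻¹ * ∑ i, f (lam N i)) atTop (𝓝 (∫ t, f t ∂μ))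
  tendsto_max : Tendsto (fun N : ℕ => ⨆ i, lam N i) atTop (𝓝 b)
  tendsto_min : Tendsto (fun N : ℕ => ⨅ i, lam N i) atTop (𝓝 a)

end Vale.Agent.Lib.P166
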