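import Mathlib

open Finset

namespace Vale.Agent.Lib.P166

/-- Partial sums of the first `k` coordinates. -/
noncomputable def psum {n : ℕ} (x : Fin n → ℝ) (k : ℕ) : ℝ := ∑ i, if i.val < k then x i else 0

/-- Value of the partial sums after a transfer from `j` to `l`. -/
theorem maj_psum_transfer {n : ℕ} (y : Fin n → ℝ) (j l : Fin n) (hjl : j ≠ l) (ε : ℝ) (k : ℕ) :
    psum (fun i => if i = j then y j - ε else if i = l then y l + ε else y i) k =
      psum y k - (if j.val < k then ε else 0) + (if l.val < k then ε else 0) := by
  classical
  unfold psum
  have key : ∀ i : Fin n,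
      (if i.val < k then (if i = j then y j - ε else if i = l then y l + ε else y i) else 0) =
        (if i.val < k then y i else 0) - (if i = j then (if j.val < k then ε else 0) else 0) +
          (if i = l then (if l.val < k then ε else 0) else 0) := by
    intro i
    by_cases hij : i = j
    · subst hij
      have : i ≠ l := hjl
      by_cases hk : i.val < k <;> simp [hk, this]
    · by_cases hil : i = l
      · subst hil
        by_cases hk : i.val < k <;> simp [hk, hij]
      · by_cases hk : i.val < k <;> simp [hk, hij, hil]
  simp_rw [key]
  rw [Finset.sum_add_distrib, Finset.sum_sub_distrib]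
  simp

/-- Weak majorization (Hardy-Littlewood-Polya/Tomic): a convex, permutation symmetric, coordinatewise
monotone function respects the order of partial sums of antitone vectors. -/
theorem maj_le {n : ℕ} (F : (Fin n → ℝ) → ℝ)
    (hconv : ConvexOn ℝ Set.univ F)
    (hsymm : ∀ (π : Equiv.Perm (Fin n)) (x : Fin n → ℝ), F (x ∘ π) = F x)
    (hmono : Monotone F) (x y : Fin n → ℝ) (hx : Antitone x) (hy : Antitone y)
    (hsum : ∀ k : ℕ, psum x k ≤ psum y k) : F x ≤ F y := by
  classical
  induction' hd : (univ.filter (fun i => x i ≠ y i)).card using Nat.strong_induction_on
    with d ih generalizing y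
  by_cases hle : ∀ i, x i ≤ y i
  · exact hmono hle
  push Not at hle
  -- the first index where `x` exceeds `y`
  have hLne : (univ.filter (fun i => y i < x i)).Nonempty := by
    obtain ⟨i, hi⟩ := hle
    exact ⟨i, by simpa using hi⟩
  obtain ⟨l, hlm, hlmin⟩ := Finset.exists_min_image _ (fun i : Fin n => i) hLne
  have hl : y l < x l := by simpa using hlm
  have hbelow : ∀ i, i < l → x i ≤ y i := by
    intro i hi
    by_contra hc
    have := hlmin i (by simpa using (not_le.mp hc))
    exact absurd hi (not_lt.mpr this)
  -- the last index before `l` where `x` is below `y`
  have hJne : (univ.filter (fun i => i < l ∧ x i < y i)).Nonempty := by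
    by_contra hemp
    have hno : ∀ i, i < l → y i ≤ x i := by
      intro i hi
      by_contra hc
      exact hemp ⟨i, by simpa using ⟨hi, not_le.mp hc⟩⟩
    have hs := hsum (l.val + 1)
    have hlt : psum y (l.val + 1) < psum x (l.val + 1) := by
      unfold psum
      apply Finset.sum_lt_sum
      · intro i _
        by_cases hk : i.val < l.val + 1
        · simp only [hk, if_true]
          rcases Nat.lt_succ_iff_lt_or_eq.mp hk with h1 | h1
          · exact hno i h1
          · have : i = l := Fin.ext h1
            rw [this]; exact hl.le
        · simp [hk]
      · exact ⟨l, Finset.mem_univ _, by simpa using hl⟩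
    linarith
  obtain ⟨j, hjm, hjmax⟩ := Finset.exists_max_image _ (fun i : Fin n => i) hJne
  have hjl : j < l := (by simpa using hjm : j < l ∧ x j < y j).1
  have hj : x j < y j := (by simpa using hjm : j < l ∧ x j < y j).2
  have hmid : ∀ i, j < i → i < l → x i = y i := by
    intro i h1 h2
    by_contra hc
    have hlt : x i < y i := lt_of_le_of_ne (hbelow i h2) hc
    have := hjmax i (by simpa using ⟨h2, hlt⟩)
    exact absurd h1 (not_lt.mpr this)
  have hxjl : x l ≤ x j := hx hjl.le
  set ε : ℝ := min (y j - x j) (x l - y l) with hε
  have hεpos : 0 < ε := lt_min (by linarith) (by linarith)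
  have hε1 : ε ≤ y j - x j := min_le_left _ _
  have hε2 : ε ≤ x l - y l := min_le_right _ _
  set y' : Fin n → ℝ := fun i => if i = j then y j - ε else if i = l then y l + ε else y i
    with hy'
  have hjne : j ≠ l := ne_of_lt hjl
  have hy'j : y' j = y j - ε := by simp [hy']
  have hy'l : y' l = y l + ε := by simp [hy', hjne.symm]
  have hy'o : ∀ i, i ≠ j → i ≠ l → y' i = y i := by
    intro i h1 h2; simp [hy', h1, h2]
  -- `y'` is antitone
  have hy'anti : Antitone y' := by
    intro a c hac
    rcases eq_or_lt_of_le hac with rfl | hlt
    · exact le_refl _
    have hya : y c ≤ y a := hy hac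
    -- all comparisons
    by_cases ha1 : a = j
    · subst ha1
      rw [hy'j]
      by_cases hc2 : c = l
      · subst hc2; rw [hy'l]; linarith
      · rw [hy'o c (ne_of_gt hlt) hc2]
        rcases lt_or_gt_of_ne hc2 with h | h
        · rw [← hmid c hlt h]
          have := hx hlt.le
          linarith
        · have h3 : y c ≤ y l := hy h.le
          linarith
    · by_cases ha2 : a = l
      · subst ha2
        rw [hy'l, hy'o c (ne_of_gt (hjl.trans hlt)) (ne_of_gt hlt)]
        linarith
      · rw [hy'o a ha1 ha2]
        by_cases hc1 : c = j
        · subst hc1; rw [hy'j]; linarith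
        · by_cases hc2 : c = l
          · subst hc2
            rw [hy'l]
            rcases lt_or_gt_of_ne ha1 with h | h
            · have h3 : y j ≤ y a := hy h.le
              linarith
            · rw [← hmid a h hlt]
              have := hx hlt.le
              linarith
          · rw [hy'o c hc1 hc2]; exact hya
  -- partial sums
  have hsum' : ∀ k : ℕ, psum x k ≤ psum y' k := by
    intro k
    rw [hy', maj_psum_transfer y j l hjne ε k]
    have hjlv : j.val < l.val := hjl
    by_cases h1 : j.val < k
    · by_cases h2 : l.val < k
      · simp only [h1, h2, if_true]
        have := hsum k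
        linarith
      · simp only [h1, h2, if_true, if_false]
        -- the gap is at least the term at `j`
        have hgap : ε ≤ psum y k - psum x k := by
          unfold psum
          rw [← Finset.sum_sub_distrib]
          have hnn : ∀ i ∈ (univ : Finset (Fin n)),
              0 ≤ (if i.val < k then y i else 0) - (if i.val < k then x i else 0) := by
            intro i _
            by_cases hk : i.val < k
            · simp only [hk, if_true]
              have : i < l := by
                show i.val < l.val
                omega
              linarith [hbelow i this]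
            · simp [hk]
          have := Finset.single_le_sum hnn (Finset.mem_univ j)
          simp only [h1, if_true] at this
          linarith
        linarith
    · have h2 : ¬ l.val < k := by omega
      simp only [h1, h2, if_false]
      have := hsum k
      linarith
  -- the convexity step
  have hFy' : F y' ≤ F y := by
    have hgap : 0 < y j - y l := by linarith
    set t : ℝ := ε / (y j - y l) with ht
    have ht0 : 0 ≤ t := by positivity
    have ht1 : t ≤ 1 := by
      rw [ht, div_le_one hgap]
      linarith
    have hte : t * (y j - y l) = ε := by
      rw [ht]; field_simp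
    have hcomb : y' = (1 - t) • y + t • (y ∘ Equiv.swap j l) := by
      funext i
      simp only [Pi.add_apply, Pi.smul_apply, smul_eq_mul, Function.comp]
      by_cases h1 : i = j
      · subst h1
        rw [hy'j, Equiv.swap_apply_left]
        nlinarith
      · by_cases h2 : i = l
        · subst h2
          rw [hy'l, Equiv.swap_apply_right]
          nlinarith
        · rw [hy'o i h1 h2, Equiv.swap_apply_of_ne_of_ne h1 h2]
          ring
    have hc := hconv.2 (Set.mem_univ y) (Set.mem_univ (y ∘ Equiv.swap j l))
      (by linarith : (0 : ℝ) ≤ 1 - t) ht0 (by ring)
    rw [← hcomb, hsymm] at hc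
    simpa using (by
      have e : (1 - t) • F y + t • F y = F y := by
        simp only [smul_eq_mul]; ring
      rw [e] at hc
      exact hc)
  -- the count of differences decreases
  have hcard : (univ.filter (fun i => x i ≠ y' i)).card < d := by
    rw [← hd]
    apply Finset.card_lt_card
    rw [Finset.ssubset_iff_of_subset]
    · by_cases hcase : ε = y j - x j
      · refine ⟨j, by simpa using (ne_of_lt hj), ?_⟩
        simp only [Finset.mem_filter, Finset.mem_univ, true_and, not_not]
        rw [hy'j, hcase]; ring
      · have hcase' : ε = x l - y l := by
          rcases min_choice (y j - x j) (x l - y l) with h | h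
          · exact absurd (hε.trans h) hcase
          · exact hε.trans h
        refine ⟨l, by simpa using (ne_of_gt hl), ?_⟩
        simp only [Finset.mem_filter, Finset.mem_univ, true_and, not_not]
        rw [hy'l, hcase']; ring
    · intro i hi
      simp only [Finset.mem_filter, Finset.mem_univ, true_and] at hi ⊢
      by_cases h1 : i = j
      · subst h1; exact ne_of_lt hj
      · by_cases h2 : i = l
        · subst h2; exact ne_of_gt hl
        · rwa [hy'o i h1 h2] at hi
  exact (ih _ hcard y' hy'anti hsum' rfl).trans hFy'

/-- From the positive part inequalities at the levels `c = y j` to the partial sums. -/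
theorem psum_le_of_pos {n : ℕ} (x y : Fin n → ℝ) (hy : Antitone y)
    (h : ∀ j, ∑ i, max (x i - y j) 0 ≤ ∑ i, max (y i - y j) 0) (k : ℕ) :
    psum x k ≤ psum y k := by
  classical
  by_cases hne : (univ.filter (fun i : Fin n => i.val < k)).Nonempty
  · obtain ⟨j, hjm, hjmax⟩ := Finset.exists_max_image _ (fun i : Fin n => i) hne
    have hjk : j.val < k := by simpa using hjm
    have hle : ∀ i : Fin n, i.val < k → i ≤ j := by
      intro i hi
      exact hjmax i (by simpa using hi)
    set c := y j with hc
    have h1 : ∀ i : Fin n, (if i.val < k then x i else 0) ≤
        (if i.val < k then c else 0) + max (x i - c) 0 := by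
      intro i
      by_cases hk : i.val < k
      · simp only [hk, if_true]
        have := le_max_left (x i - c) 0
        linarith
      · simp only [hk, if_false]
        have := le_max_right (x i - c) 0
        linarith
    have h2 : ∀ i : Fin n, (if i.val < k then y i else 0) =
        (if i.val < k then c else 0) + max (y i - c) 0 := by
      intro i
      by_cases hk : i.val < k
      · simp only [hk, if_true]
        have hyi : c ≤ y i := hy (hle i hk)
        rw [max_eq_left (by linarith)]
        ring
      · simp only [hk, if_false]
        have hji : j ≤ i := by
          show j.val ≤ i.val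
          omega
        have hyi : y i ≤ c := hy hji
        rw [max_eq_right (by linarith)]
        ring
    unfold psum
    calc ∑ i, (if i.val < k then x i else 0)
        ≤ ∑ i, ((if i.val < k then c else 0) + max (x i - c) 0) :=
          Finset.sum_le_sum (fun i _ => h1 i)
      _ = ∑ i : Fin n, (if i.val < k then c else 0) + ∑ i, max (x i - c) 0 :=
          Finset.sum_add_distrib
      _ ≤ ∑ i : Fin n, (if i.val < k then c else 0) + ∑ i, max (y i - c) 0 := by
          have := h j
          linarith
      _ = ∑ i, ((if i.val < k then c else 0) + max (y i - c) 0) :=
          Finset.sum_add_distrib.symm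
      _ = ∑ i, (if i.val < k then y i else 0) :=
          Finset.sum_congr rfl (fun i _ => (h2 i).symm)
  · have hzero : ∀ i : Fin n, ¬ i.val < k := by
      intro i hi
      exact hne ⟨i, by simpa using hi⟩
    unfold psum
    simp [hzero]

end Vale.Agent.Lib.P166
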