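import Mathlib
import Vale.Agent.Lib.P166.Defs

open MeasureTheory Filter Topology Matrix

namespace Vale.Agent.Lib.P166

/-- The squared coordinates of `U σ`. -/
noncomputable def wt {N : ℕ} (U : Matrix.orthogonalGroup (Fin N) ℝ) (s : Fin N → Bool) (i : Fin N) :
    ℝ :=
  (((U : Matrix (Fin N) (Fin N) ℝ) *ᵥ spin s) i) ^ 2

theorem wt_nonneg {N : ℕ} (U : Matrix.orthogonalGroup (Fin N) ℝ) (s : Fin N → Bool) (i : Fin N) :
    0 ≤ wt U s i := sq_nonneg _

theorem spin_dot {N : ℕ} (s : Fin N → Bool) : spin s ⬝ᵥ spin s = N := by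
  simp only [dotProduct, spin]
  have : ∀ i : Fin N, (if s i = true then (1 : ℝ) else -1) * (if s i = true then (1 : ℝ) else -1) = 1 := by
    intro i
    split_ifs <;> norm_num
  simp [this]

theorem sum_wt {N : ℕ} (U : Matrix.orthogonalGroup (Fin N) ℝ) (s : Fin N → Bool) :
    ∑ i, wt U s i = N := by
  have h : (U : Matrix (Fin N) (Fin N) ℝ)ᵀ * (U : Matrix (Fin N) (Fin N) ℝ) = 1 :=
    (Matrix.mem_orthogonalGroup_iff' (Fin N) ℝ).mp U.2
  have e : ∑ i, wt U s i = ((U : Matrix (Fin N) (Fin N) ℝ) *ᵥ spin s) ⬝ᵥ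
      ((U : Matrix (Fin N) (Fin N) ℝ) *ᵥ spin s) := by
    simp only [wt, dotProduct, sq]
  rw [e]
  calc ((U : Matrix (Fin N) (Fin N) ℝ) *ᵥ spin s) ⬝ᵥ ((U : Matrix (Fin N) (Fin N) ℝ) *ᵥ spin s)
      = (spin s ᵥ* (U : Matrix (Fin N) (Fin N) ℝ)ᵀ) ⬝ᵥ
          ((U : Matrix (Fin N) (Fin N) ℝ) *ᵥ spin s) := by
        rw [Matrix.vecMul_transpose]
    _ = spin s ⬝ᵥ ((U : Matrix (Fin N) (Fin N) ℝ)ᵀ *ᵥ
          ((U : Matrix (Fin N) (Fin N) ℝ) *ᵥ spin s)) :=
        (Matrix.dotProduct_mulVec _ _ _).symm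
    _ = (N : ℝ) := by
        rw [Matrix.mulVec_mulVec, h, Matrix.one_mulVec, spin_dot]

theorem quad_eq {N : ℕ} (U : Matrix.orthogonalGroup (Fin N) ℝ) (lam : Fin N → ℝ)
    (s : Fin N → Bool) :
    spin s ⬝ᵥ (coupling U lam *ᵥ spin s) = ∑ i, lam i * wt U s i := by
  unfold coupling
  rw [← Matrix.mulVec_mulVec, ← Matrix.mulVec_mulVec, Matrix.dotProduct_mulVec,
    Matrix.vecMul_transpose]
  simp only [dotProduct, Matrix.mulVec_diagonal, wt, sq]
  refine Finset.sum_congr rfl (fun i _ => ?_)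
  ring

theorem pressure_coupling {N : ℕ} (β : ℝ) (U : Matrix.orthogonalGroup (Fin N) ℝ)
    (lam : Fin N → ℝ) :
    pressure β (coupling U lam) = (N : ℝ)⁻¹ * Real.log ((2 : ℝ)⁻¹ ^ N *
      ∑ s : Fin N → Bool, Real.exp (β / 2 * ∑ i, lam i * wt U s i)) := by
  unfold pressure
  simp only [quad_eq]

theorem sum_exp_pos {ι : Type*} [Fintype ι] [Nonempty ι] (a : ι → ℝ) :
    0 < ∑ s, Real.exp (a s) :=
  Finset.sum_pos (fun _ _ => Real.exp_pos _) Finset.univ_nonempty

/-- Convexity of log-sum-exp. -/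
theorem log_sum_exp_convex {ι : Type*} [Fintype ι] [Nonempty ι] (a b : ι → ℝ) {t : ℝ}
    (ht0 : 0 ≤ t) (ht1 : t ≤ 1) :
    Real.log (∑ s, Real.exp (t * a s + (1 - t) * b s)) ≤
      t * Real.log (∑ s, Real.exp (a s)) + (1 - t) * Real.log (∑ s, Real.exp (b s)) := by
  set A := ∑ s, Real.exp (a s) with hA
  set B := ∑ s, Real.exp (b s) with hB
  have hA0 : 0 < A := sum_exp_pos a
  have hB0 : 0 < B := sum_exp_pos b
  set L := t * Real.log A + (1 - t) * Real.log B with hL
  have key : ∀ s, Real.exp (t * a s + (1 - t) * b s) ≤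
      Real.exp L * (t * (Real.exp (a s) / A) + (1 - t) * (Real.exp (b s) / B)) := by
    intro s
    have h1 : t * a s + (1 - t) * b s = L + (t * (a s - Real.log A) + (1 - t) * (b s - Real.log B)) := by
      rw [hL]; ring
    rw [h1, Real.exp_add]
    apply mul_le_mul_of_nonneg_left _ (Real.exp_pos _).le
    have h2 := convexOn_exp.2 (Set.mem_univ (a s - Real.log A)) (Set.mem_univ (b s - Real.log B))
      ht0 (sub_nonneg.mpr ht1) (by ring)
    simp only [smul_eq_mul] at h2
    rw [Real.exp_sub, Real.exp_sub, Real.exp_log hA0, Real.exp_log hB0] at h2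
    exact h2
  have hsum : ∑ s, Real.exp (t * a s + (1 - t) * b s) ≤ Real.exp L := by
    calc ∑ s, Real.exp (t * a s + (1 - t) * b s)
        ≤ ∑ s, Real.exp L * (t * (Real.exp (a s) / A) + (1 - t) * (Real.exp (b s) / B)) :=
          Finset.sum_le_sum (fun s _ => key s)
      _ = Real.exp L * (t * ((∑ s, Real.exp (a s)) / A) + (1 - t) * ((∑ s, Real.exp (b s)) / B)) := by
          rw [← Finset.mul_sum, Finset.sum_add_distrib, ← Finset.mul_sum, ← Finset.mul_sum,
            Finset.sum_div, Finset.sum_div]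
      _ = Real.exp L := by
          rw [← hA, ← hB, div_self hA0.ne', div_self hB0.ne']
          ring
  calc Real.log (∑ s, Real.exp (t * a s + (1 - t) * b s))
      ≤ Real.log (Real.exp L) := Real.log_le_log (sum_exp_pos _) hsum
    _ = L := Real.log_exp L

/-- Pointwise convexity in the spectrum. -/
theorem pressure_convex {N : ℕ} (β : ℝ) (U : Matrix.orthogonalGroup (Fin N) ℝ)
    (x y : Fin N → ℝ) {t : ℝ} (ht0 : 0 ≤ t) (ht1 : t ≤ 1) :
    pressure β (coupling U (fun i => t * x i + (1 - t) * y i)) ≤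
      t * pressure β (coupling U x) + (1 - t) * pressure β (coupling U y) := by
  simp only [pressure_coupling]
  have hK : (0 : ℝ) < (2 : ℝ)⁻¹ ^ N := by positivity
  set a : (Fin N → Bool) → ℝ := fun s => β / 2 * ∑ i, x i * wt U s i with ha
  set b : (Fin N → Bool) → ℝ := fun s => β / 2 * ∑ i, y i * wt U s i with hb
  have e : ∀ s : Fin N → Bool, β / 2 * ∑ i, (t * x i + (1 - t) * y i) * wt U s i =
      t * a s + (1 - t) * b s := by
    intro s
    simp only [ha, hb, add_mul, Finset.sum_add_distrib, mul_add, Finset.mul_sum]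
    congr 1 <;> refine Finset.sum_congr rfl (fun i _ => ?_) <;> ring
  simp only [e]
  rw [Real.log_mul hK.ne' (sum_exp_pos _).ne', Real.log_mul hK.ne' (sum_exp_pos a).ne',
    Real.log_mul hK.ne' (sum_exp_pos b).ne']
  have h := log_sum_exp_convex a b ht0 ht1
  have hN : (0 : ℝ) ≤ (N : ℝ)⁻¹ := by positivity
  have := mul_le_mul_of_nonneg_left h hN
  nlinarith [this]

/-- Pointwise monotonicity in the spectrum. -/
theorem pressure_mono {N : ℕ} {β : ℝ} (hβ : 0 ≤ β) (U : Matrix.orthogonalGroup (Fin N) ℝ)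
    {x y : Fin N → ℝ} (hxy : x ≤ y) :
    pressure β (coupling U x) ≤ pressure β (coupling U y) := by
  simp only [pressure_coupling]
  apply mul_le_mul_of_nonneg_left _ (by positivity)
  apply Real.log_le_log (mul_pos (by positivity) (sum_exp_pos _))
  apply mul_le_mul_of_nonneg_left _ (by positivity)
  refine Finset.sum_le_sum (fun s _ => Real.exp_le_exp.mpr ?_)
  apply mul_le_mul_of_nonneg_left _ (by positivity)
  exact Finset.sum_le_sum (fun i _ => mul_le_mul_of_nonneg_right (hxy i) (wt_nonneg U s i))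

/-- Pointwise shift. -/
theorem pressure_shift {N : ℕ} (hN : 0 < N) (β c : ℝ) (U : Matrix.orthogonalGroup (Fin N) ℝ)
    (lam : Fin N → ℝ) :
    pressure β (coupling U (fun i => lam i + c)) = pressure β (coupling U lam) + β * c / 2 := by
  simp only [pressure_coupling]
  have hN' : (N : ℝ) ≠ 0 := by positivity
  have hK : (0 : ℝ) < (2 : ℝ)⁻¹ ^ N := by positivity
  have e : ∀ s : Fin N → Bool, Real.exp (β / 2 * ∑ i, (lam i + c) * wt U s i) =
      Real.exp (β / 2 * c * N) * Real.exp (β / 2 * ∑ i, lam i * wt U s i) := by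
    intro s
    rw [← Real.exp_add]
    congr 1
    simp only [add_mul, Finset.sum_add_distrib]
    rw [← Finset.mul_sum, sum_wt]
    ring
  simp only [e]
  rw [← Finset.mul_sum, ← mul_assoc, mul_comm ((2 : ℝ)⁻¹ ^ N), mul_assoc,
    Real.log_mul (Real.exp_pos _).ne' (mul_pos hK (sum_exp_pos _)).ne', Real.log_exp, mul_add]
  field_simp
  ring

/-- Uniform bound. -/
theorem pressure_abs_le {N : ℕ} (β : ℝ) (U : Matrix.orthogonalGroup (Fin N) ℝ)
    (lam : Fin N → ℝ) :
    |pressure β (coupling U lam)| ≤ |β| / 2 * (∑ i, |lam i|) * N * (N : ℝ)⁻¹ := by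
  rw [pressure_coupling, abs_mul, abs_of_nonneg (show (0 : ℝ) ≤ (N : ℝ)⁻¹ by positivity)]
  rw [mul_comm]
  apply mul_le_mul_of_nonneg_right _ (by positivity)
  set A : ℝ := |β| / 2 * (∑ i, |lam i|) * N with hA
  have hE : ∀ s : Fin N → Bool, |β / 2 * ∑ i, lam i * wt U s i| ≤ A := by
    intro s
    rw [abs_mul, abs_div, abs_of_pos (show (0 : ℝ) < 2 by norm_num), hA, mul_assoc]
    apply mul_le_mul_of_nonneg_left _ (by positivity)
    calc |∑ i, lam i * wt U s i| ≤ ∑ i, |lam i * wt U s i| := Finset.abs_sum_le_sum_abs _ _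
      _ = ∑ i, |lam i| * wt U s i := by
          refine Finset.sum_congr rfl (fun i _ => ?_)
          rw [abs_mul, abs_of_nonneg (wt_nonneg U s i)]
      _ ≤ ∑ i, (∑ j, |lam j|) * wt U s i := by
          refine Finset.sum_le_sum (fun i _ => mul_le_mul_of_nonneg_right ?_ (wt_nonneg U s i))
          exact Finset.single_le_sum (f := fun j => |lam j|) (fun j _ => abs_nonneg _) (Finset.mem_univ i)
      _ = (∑ i, |lam i|) * N := by
          rw [← Finset.mul_sum, sum_wt]
  have hcard : ((Fintype.card (Fin N → Bool) : ℕ) : ℝ) = 2 ^ N := by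
    simp
  have hK : (2 : ℝ)⁻¹ ^ N * 2 ^ N = 1 := by
    rw [← mul_pow]; norm_num
  have hup : (2 : ℝ)⁻¹ ^ N * ∑ s : Fin N → Bool, Real.exp (β / 2 * ∑ i, lam i * wt U s i) ≤
      Real.exp A := by
    have : ∑ s : Fin N → Bool, Real.exp (β / 2 * ∑ i, lam i * wt U s i) ≤
        ∑ _s : Fin N → Bool, Real.exp A :=
      Finset.sum_le_sum (fun s _ => Real.exp_le_exp.mpr ((le_abs_self _).trans (hE s)))
    rw [Finset.sum_const, Finset.card_univ, nsmul_eq_mul, hcard] at this
    calc _ ≤ (2 : ℝ)⁻¹ ^ N * (2 ^ N * Real.exp A) :=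
          mul_le_mul_of_nonneg_left this (by positivity)
      _ = Real.exp A := by rw [← mul_assoc, hK, one_mul]
  have hlo : Real.exp (-A) ≤ (2 : ℝ)⁻¹ ^ N *
      ∑ s : Fin N → Bool, Real.exp (β / 2 * ∑ i, lam i * wt U s i) := by
    have : ∑ _s : Fin N → Bool, Real.exp (-A) ≤
        ∑ s : Fin N → Bool, Real.exp (β / 2 * ∑ i, lam i * wt U s i) :=
      Finset.sum_le_sum (fun s _ => Real.exp_le_exp.mpr (neg_le_of_abs_le (hE s)))
    rw [Finset.sum_const, Finset.card_univ, nsmul_eq_mul, hcard] at this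
    calc Real.exp (-A) = (2 : ℝ)⁻¹ ^ N * (2 ^ N * Real.exp (-A)) := by rw [← mul_assoc, hK, one_mul]
      _ ≤ _ := mul_le_mul_of_nonneg_left this (by positivity)
  rw [abs_le]
  constructor
  · have := Real.log_le_log (Real.exp_pos _) hlo
    rwa [Real.log_exp] at this
  · have := Real.log_le_log (lt_of_lt_of_le (Real.exp_pos _) hlo) hup
    rwa [Real.log_exp] at this

theorem pressure_continuous {N : ℕ} (β : ℝ) (lam : Fin N → ℝ) :
    Continuous (fun U : Matrix.orthogonalGroup (Fin N) ℝ => pressure β (coupling U lam)) := by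
  simp only [pressure_coupling]
  refine continuous_const.mul (Continuous.log ?_ ?_)
  · refine continuous_const.mul (continuous_finsetSum _ (fun s _ => ?_))
    refine Real.continuous_exp.comp (continuous_const.mul (continuous_finsetSum _ (fun i _ => ?_)))
    refine continuous_const.mul ?_
    unfold wt
    refine Continuous.pow ?_ 2
    have : Continuous (fun U : Matrix.orthogonalGroup (Fin N) ℝ =>
        (U : Matrix (Fin N) (Fin N) ℝ) *ᵥ spin s) :=
      Continuous.matrix_mulVec continuous_subtype_val continuous_const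
    exact (continuous_apply i).comp this
  · intro U
    exact (mul_pos (by positivity) (sum_exp_pos _)).ne'

/-- The permutation matrix of `π` as an element of `O(N)`: rows permuted by `π`. -/
noncomputable def permO {N : ℕ} (π : Equiv.Perm (Fin N)) : Matrix.orthogonalGroup (Fin N) ℝ :=
  ⟨(1 : Matrix (Fin N) (Fin N) ℝ).submatrix π id, by
    rw [Matrix.mem_orthogonalGroup_iff]
    ext i j
    simp only [Matrix.mul_apply, Matrix.transpose_apply, Matrix.submatrix_apply, id,
      Matrix.one_apply]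
    rw [Finset.sum_eq_single (π i)]
    · simp [π.injective.eq_iff, eq_comm]
    · intro k _ hk
      simp [Ne.symm hk]
    · simp⟩

theorem permO_mulVec {N : ℕ} (π : Equiv.Perm (Fin N)) (U : Matrix.orthogonalGroup (Fin N) ℝ)
    (v : Fin N → ℝ) (i : Fin N) :
    (((permO π * U : Matrix.orthogonalGroup (Fin N) ℝ) : Matrix (Fin N) (Fin N) ℝ) *ᵥ v) i =
      ((U : Matrix (Fin N) (Fin N) ℝ) *ᵥ v) (π i) := by
  have : ((permO π * U : Matrix.orthogonalGroup (Fin N) ℝ) : Matrix (Fin N) (Fin N) ℝ) =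
      (U : Matrix (Fin N) (Fin N) ℝ).submatrix π id := by
    ext a b
    show ((1 : Matrix (Fin N) (Fin N) ℝ).submatrix π id * (U : Matrix (Fin N) (Fin N) ℝ)) a b = _
    simp only [Matrix.mul_apply, Matrix.submatrix_apply, id, Matrix.one_apply]
    simp
  rw [this]
  rfl

theorem wt_permO {N : ℕ} (π : Equiv.Perm (Fin N)) (U : Matrix.orthogonalGroup (Fin N) ℝ)
    (s : Fin N → Bool) (i : Fin N) : wt (permO π * U) s i = wt U s (π i) := by
  unfold wt
  rw [permO_mulVec]

/-- Relabelling the spectrum by `π` is the left multiplication by a permutation matrix. -/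
theorem pressure_permO {N : ℕ} (β : ℝ) (π : Equiv.Perm (Fin N))
    (U : Matrix.orthogonalGroup (Fin N) ℝ) (lam : Fin N → ℝ) :
    pressure β (coupling (permO π⁻¹ * U) lam) = pressure β (coupling U (lam ∘ π)) := by
  simp only [pressure_coupling]
  congr 3
  refine Finset.sum_congr rfl (fun s _ => ?_)
  congr 2
  simp only [wt_permO, Function.comp]
  rw [← Equiv.sum_comp π (fun i => lam i * wt U s (π⁻¹ i))]
  simp

section integrated

variable {N : ℕ} [MeasurableSpace (Matrix.orthogonalGroup (Fin N) ℝ)]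
  [BorelSpace (Matrix.orthogonalGroup (Fin N) ℝ)]
  (ν : Measure (Matrix.orthogonalGroup (Fin N) ℝ)) [IsProbabilityMeasure ν]

theorem pressure_integrable (β : ℝ) (lam : Fin N → ℝ) :
    Integrable (fun U => pressure β (coupling U lam)) ν := by
  refine Integrable.of_bound ((pressure_continuous β lam).aestronglyMeasurable)
    (|β| / 2 * (∑ i, |lam i|) * N * (N : ℝ)⁻¹) (Eventually.of_forall (fun U => ?_))
  rw [Real.norm_eq_abs]
  exact pressure_abs_le β U lam

theorem avg_convex (β : ℝ) : ConvexOn ℝ Set.univ (avgPressure ν β) := by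
  refine ⟨convex_univ, fun x _ y _ a b ha hb hab => ?_⟩
  have hb' : b = 1 - a := by linarith
  subst hb'
  have ht1 : a ≤ 1 := by linarith
  simp only [smul_eq_mul]
  unfold avgPressure
  have e : (a • x + (1 - a) • y) = fun i => a * x i + (1 - a) * y i := by
    funext i
    simp
  rw [e, ← integral_const_mul, ← integral_const_mul,
    ← integral_add ((pressure_integrable ν β x).const_mul a)
      ((pressure_integrable ν β y).const_mul (1 - a))]
  refine integral_mono (pressure_integrable ν β _)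
    (((pressure_integrable ν β x).const_mul a).add ((pressure_integrable ν β y).const_mul (1 - a)))
    (fun U => ?_)
  exact pressure_convex β U x y ha ht1

omit [IsProbabilityMeasure ν] in
theorem avg_symm [ν.IsMulLeftInvariant] (β : ℝ) (π : Equiv.Perm (Fin N)) (lam : Fin N → ℝ) :
    avgPressure ν β (lam ∘ π) = avgPressure ν β lam := by
  unfold avgPressure
  have h := integral_mul_left_eq_self (μ := ν)
    (fun U => pressure β (coupling U lam)) (permO π⁻¹)
  rw [← h]
  refine integral_congr_ae (Eventually.of_forall (fun U => ?_))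
  exact (pressure_permO β π U lam).symm

theorem avg_mono {β : ℝ} (hβ : 0 ≤ β) : Monotone (avgPressure ν β) := by
  intro x y hxy
  exact integral_mono (pressure_integrable ν β x) (pressure_integrable ν β y)
    (fun U => pressure_mono hβ U hxy)

theorem avg_shift (hN : 0 < N) (β c : ℝ) (lam : Fin N → ℝ) :
    avgPressure ν β (fun i => lam i + c) = avgPressure ν β lam + β * c / 2 := by
  unfold avgPressure
  simp only [pressure_shift hN]
  rw [integral_add (pressure_integrable ν β lam) (integrable_const _)]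
  simp

end integrated

end Vale.Agent.Lib.P166
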