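import Mathlib
import Vale.Agent.Lib.P166.Defs

open MeasureTheory Filter Topology

namespace Vale.Agent.Lib.P166

/-- The truncated positive part `t ↦ (min t (b+1) - c)⁺` as a bounded continuous function. -/
noncomputable def wkTr (b c : ℝ) : BoundedContinuousFunction ℝ ℝ :=
  BoundedContinuousFunction.ofNormedAddCommGroup (fun t => max (min t (b + 1) - c) 0)
    (by fun_prop) (|b + 1 - c|) (by
      intro t
      rw [Real.norm_eq_abs, abs_of_nonneg (le_max_right _ _)]
      refine max_le ?_ (abs_nonneg _)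
      calc min t (b + 1) - c ≤ b + 1 - c := by linarith [min_le_right t (b + 1)]
        _ ≤ _ := le_abs_self _)

theorem wkTr_apply (b c t : ℝ) : wkTr b c t = max (min t (b + 1) - c) 0 := rfl

theorem wk_gap {μ : Measure ℝ} [IsProbabilityMeasure μ] {b : ℝ} (hb : b ∈ μ.support) {δ : ℝ}
    (hδ : 0 < δ) {c : ℝ} (hc : c ≤ b - δ / 2) :
    ∫ t, wkTr b (c + δ) t ∂μ < ∫ t, wkTr b (c + δ / 4) t ∂μ := by
  have hi1 : Integrable (fun t => wkTr b (c + δ) t) μ := (wkTr b (c + δ)).integrable μ
  have hi2 : Integrable (fun t => wkTr b (c + δ / 4) t) μ := (wkTr b (c + δ / 4)).integrable μ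
  rw [← sub_pos, ← integral_sub hi2 hi1]
  have hnn : 0 ≤ fun t => wkTr b (c + δ / 4) t - wkTr b (c + δ) t := by
    intro t
    simp only [wkTr_apply, Pi.zero_apply]
    have : max (min t (b + 1) - (c + δ)) 0 ≤ max (min t (b + 1) - (c + δ / 4)) 0 :=
      max_le_max (by linarith) le_rfl
    linarith
  rw [integral_pos_iff_support_of_nonneg hnn (hi2.sub hi1)]
  have hU : Set.Ioi (b - δ / 8) ∈ 𝓝 b := Ioi_mem_nhds (by linarith)
  have hpos := (Measure.mem_support_iff_forall b).1 hb _ hU
  refine lt_of_lt_of_le hpos (measure_mono ?_)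
  intro t ht
  have ht' : b - δ / 8 < t := ht
  simp only [Function.mem_support, wkTr_apply]
  set s := min t (b + 1) with hs
  have hs1 : b - δ / 8 < s := by
    rw [hs]
    exact lt_min ht' (by linarith)
  have h1 : s - (c + δ / 4) ≤ max (s - (c + δ / 4)) 0 := le_max_left _ _
  have hne : max (s - (c + δ)) 0 < max (s - (c + δ / 4)) 0 := by
    refine max_lt ?_ ?_
    · linarith
    · linarith
  exact sub_ne_zero.mpr hne.ne'

/-- Main analytic input: for two admissible spectra with the same `μ`, for every `δ > 0`,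
eventually `∑ (lam i - c - δ)⁺ ≤ ∑ (lam' i - c)⁺` for all levels `c ≥ a - 1`. -/
theorem slack {μ : Measure ℝ} [IsProbabilityMeasure μ] {a b : ℝ} (hb : IsGreatest μ.support b)
    {lam lam' : ∀ N : ℕ, Fin N → ℝ} (h : Admissible μ a b lam) (h' : Admissible μ a b lam')
    {δ : ℝ} (hδ : 0 < δ) :
    ∀ᶠ N : ℕ in atTop, ∀ c : ℝ, a - 1 ≤ c →
      ∑ i, max (lam N i - (c + δ)) 0 ≤ ∑ i, max (lam' N i - c) 0 := by
  set η : ℝ := δ / 4 with hη
  have hηpos : 0 < η := by positivity
  -- upper bounds for the entries of `lam`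
  have hup : ∀ᶠ N : ℕ in atTop, ∀ i, lam N i < b + min (δ / 2) 1 := by
    have := h.tendsto_max.eventually
      (gt_mem_nhds (show b < b + min (δ / 2) 1 by
        have : 0 < min (δ / 2) 1 := lt_min (by positivity) one_pos
        linarith))
    filter_upwards [this] with N hN i
    exact lt_of_le_of_lt (le_ciSup (Finite.bddAbove_range _) i) hN
  -- the grid
  set cg : ℕ → ℝ := fun j => a - 1 + j * η with hcg
  set J : ℕ := ⌊(b - a + 1) / η⌋₊ + 1 with hJ
  have hgrid : ∀ j ∈ Finset.range J, ∀ᶠ N : ℕ in atTop, cg j ≤ b - δ / 2 →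
      (N : ℝ)⁻¹ * ∑ i, wkTr b (cg j + δ) (lam N i) <
        (N : ℝ)⁻¹ * ∑ i, wkTr b (cg j + η) (lam' N i) := by
    intro j _
    by_cases hj : cg j ≤ b - δ / 2
    · have := (h.weak (wkTr b (cg j + δ))).eventually_lt (h'.weak (wkTr b (cg j + η)))
        (wk_gap hb.1 hδ hj)
      filter_upwards [this] with N hN _ using hN
    · exact Eventually.of_forall fun N hN => absurd hN hj
  have hgrid' := (Filter.eventually_all_finset (Finset.range J)).2 hgrid
  filter_upwards [hup, hgrid', eventually_gt_atTop 0] with N hN hG hNpos c hc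
  by_cases hcase : b - δ / 2 < c
  · -- large levels
    have h0 : ∑ i, max (lam N i - (c + δ)) 0 = 0 := by
      refine Finset.sum_eq_zero fun i _ => max_eq_right ?_
      have := hN i
      have h2 : min (δ / 2) 1 ≤ δ / 2 := min_le_left _ _
      linarith
    rw [h0]
    exact Finset.sum_nonneg fun i _ => le_max_right _ _
  · -- levels in the compact range
    push Not at hcase
    set j : ℕ := ⌊(c - (a - 1)) / η⌋₊ with hj
    have hnn : 0 ≤ (c - (a - 1)) / η := div_nonneg (by linarith) hηpos.le
    have hj1 : (j : ℝ) * η ≤ c - (a - 1) := by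
      have := Nat.floor_le hnn
      rwa [le_div_iff₀ hηpos] at this
    have hj2 : c - (a - 1) < ((j : ℝ) + 1) * η := by
      have := Nat.lt_floor_add_one ((c - (a - 1)) / η)
      rwa [div_lt_iff₀ hηpos] at this
    have hjc1 : cg j ≤ c := by
      simp only [hcg]
      linarith
    have hjc2 : c ≤ cg j + η := by
      simp only [hcg]
      nlinarith
    have hjJ : j ∈ Finset.range J := by
      rw [Finset.mem_range, hJ, Nat.lt_succ_iff]
      refine Nat.floor_le_floor ?_
      refine div_le_div_of_nonneg_right ?_ hηpos.le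
      linarith
    have hg := hG j hjJ (hjc1.trans hcase)
    have hNinv : (0 : ℝ) < (N : ℝ)⁻¹ := inv_pos.mpr (by exact_mod_cast hNpos)
    have hlt := lt_of_mul_lt_mul_left hg hNinv.le
    have hL : ∑ i, max (lam N i - (c + δ)) 0 ≤ ∑ i, wkTr b (cg j + δ) (lam N i) := by
      refine Finset.sum_le_sum fun i _ => ?_
      rw [wkTr_apply]
      have hle : lam N i ≤ b + 1 := by
        have := hN i
        have h2 : min (δ / 2) 1 ≤ 1 := min_le_right _ _
        linarith
      rw [min_eq_left hle]
      exact max_le_max (by linarith) le_rfl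
    have hR : ∑ i, wkTr b (cg j + η) (lam' N i) ≤ ∑ i, max (lam' N i - c) 0 := by
      refine Finset.sum_le_sum fun i _ => ?_
      rw [wkTr_apply]
      refine max_le_max ?_ le_rfl
      linarith [min_le_left (lam' N i) (b + 1)]
    exact hL.trans (hlt.le.trans hR)

end Vale.Agent.Lib.P166
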