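import Mathlib
import Vale.Agent.Lib.P166.Defs
import Vale.Agent.Lib.P166.Maj
import Vale.Agent.Lib.P166.Press
import Vale.Agent.Lib.P166.Weak

open MeasureTheory Filter Topology Matrix

namespace Vale.Agent.Lib.P166

/-- An antitone rearrangement. -/
noncomputable def antiSort {n : ℕ} (x : Fin n → ℝ) : Equiv.Perm (Fin n) :=
  Fin.revPerm.trans (Tuple.sort x)

theorem antitone_antiSort {n : ℕ} (x : Fin n → ℝ) : Antitone (x ∘ antiSort x) := by
  intro i j hij
  have := Tuple.monotone_sort x (Fin.rev_le_rev.mpr hij)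
  simpa [antiSort] using this

/-- One sided comparison at fixed `N`. -/
theorem avg_le_of_slack {N : ℕ} (hN : 0 < N) [MeasurableSpace (Matrix.orthogonalGroup (Fin N) ℝ)]
    [BorelSpace (Matrix.orthogonalGroup (Fin N) ℝ)]
    (ν : Measure (Matrix.orthogonalGroup (Fin N) ℝ)) [IsProbabilityMeasure ν]
    [ν.IsMulLeftInvariant] {β : ℝ} (hβ : 0 ≤ β) (lam lam' : Fin N → ℝ) (δ A : ℝ)
    (hlow : ∀ i, A ≤ lam' i)
    (h : ∀ c : ℝ, A ≤ c → ∑ i, max (lam i - (c + δ)) 0 ≤ ∑ i, max (lam' i - c) 0) :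
    avgPressure ν β lam ≤ avgPressure ν β lam' + β * δ / 2 := by
  set π := antiSort lam
  set π' := antiSort lam'
  have hx : Antitone (lam ∘ π) := antitone_antiSort lam
  have hy0 : Antitone (lam' ∘ π') := antitone_antiSort lam'
  set y : Fin N → ℝ := (fun i => lam' i + δ) ∘ π' with hy_def
  have hy : Antitone y := by
    intro i j hij
    have := hy0 hij
    simp only [Function.comp, hy_def] at this ⊢
    linarith
  have key : ∀ k : ℕ, psum (lam ∘ π) k ≤ psum y k := by
    apply psum_le_of_pos _ _ hy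
    intro j
    have h1 := h (lam' (π' j)) (hlow _)
    have e1 : ∑ i, max ((lam ∘ π) i - y j) 0 = ∑ i, max (lam i - (lam' (π' j) + δ)) 0 := by
      simp only [Function.comp, hy_def]
      exact Equiv.sum_comp π (fun i => max (lam i - (lam' (π' j) + δ)) 0)
    have e2 : ∑ i, max (y i - y j) 0 = ∑ i, max (lam' i - lam' (π' j)) 0 := by
      simp only [Function.comp, hy_def]
      have := Equiv.sum_comp π' (fun i => max (lam' i - lam' (π' j)) 0)
      rw [← this]
      refine Finset.sum_congr rfl (fun i _ => ?_)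
      congr 1
      ring
    rw [e1, e2]
    exact h1
  have hm := maj_le (avgPressure ν β) (avg_convex ν β) (avg_symm ν β) (avg_mono ν hβ) _ _ hx hy key
  rw [avg_symm] at hm
  have : avgPressure ν β y = avgPressure ν β lam' + β * δ / 2 := by
    rw [hy_def, avg_symm, avg_shift ν hN]
  linarith

/-- The main theorem: the Haar-averaged pressure depends asymptotically only on `(β, μ)`. -/
theorem avg_diff_tendsto {μ : Measure ℝ} [IsProbabilityMeasure μ] {a b : ℝ}
    (hb : IsGreatest μ.support b)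
    [∀ N : ℕ, MeasurableSpace (Matrix.orthogonalGroup (Fin N) ℝ)]
    [∀ N : ℕ, BorelSpace (Matrix.orthogonalGroup (Fin N) ℝ)]
    (ν : ∀ N : ℕ, Measure (Matrix.orthogonalGroup (Fin N) ℝ))
    [∀ N : ℕ, IsProbabilityMeasure (ν N)] [∀ N : ℕ, (ν N).IsMulLeftInvariant]
    {β : ℝ} (hβ : 0 ≤ β) {lam lam' : ∀ N : ℕ, Fin N → ℝ}
    (h : Admissible μ a b lam) (h' : Admissible μ a b lam') :
    Tendsto (fun N : ℕ => avgPressure (ν N) β (lam N) - avgPressure (ν N) β (lam' N))
      atTop (𝓝 0) := by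
  -- eigenvalues stay above `a - 1`
  have low : ∀ {l : ∀ N : ℕ, Fin N → ℝ}, Admissible μ a b l →
      ∀ᶠ N : ℕ in atTop, ∀ i, a - 1 ≤ l N i := by
    intro l hl
    have := hl.tendsto_min.eventually (lt_mem_nhds (show a - 1 < a by linarith))
    filter_upwards [this] with N hN i
    exact hN.le.trans (ciInf_le (Finite.bddBelow_range _) i)
  rw [Metric.tendsto_atTop']
  intro ε hε
  set δ : ℝ := ε / (β + 1) with hδ_def
  have hδ : 0 < δ := by positivity
  have hδ2 : β * δ / 2 < ε := by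
    have : β * δ ≤ ε := by
      rw [hδ_def, mul_div_assoc', div_le_iff₀ (by positivity)]
      nlinarith
    linarith
  have e1 := slack hb h h' hδ
  have e2 := slack hb h' h hδ
  have e3 := low h
  have e4 := low h'
  obtain ⟨N0, hN0⟩ := (e1.and (e2.and (e3.and (e4.and (eventually_gt_atTop 0))))).exists_forall_of_atTop
  refine ⟨N0, fun N hN => ?_⟩
  obtain ⟨a1, a2, a3, a4, a5⟩ := hN0 N hN.le
  have i1 := avg_le_of_slack a5 (ν N) hβ (lam N) (lam' N) δ (a - 1) a4 a1
  have i2 := avg_le_of_slack a5 (ν N) hβ (lam' N) (lam N) δ (a - 1) a3 a2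
  rw [Real.dist_eq, sub_zero, abs_lt]
  constructor <;> linarith

end Vale.Agent.Lib.P166
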