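import Mathlib
import Vale.Agent.Lib.P166.Main
import Vale.Agent.Lib.P166.Weak

open MeasureTheory Filter Topology Matrix

namespace Vale.Agent.Lib.P166

/-- Almost every point lies below the maximum of the support. -/
theorem cmp_ae_le {μ : Measure ℝ} {b : ℝ} (hb : IsGreatest μ.support b) : ∀ᵐ t ∂μ, t ≤ b := by
  have h0 : μ (μ.support)ᶜ = 0 := Measure.measure_compl_support
  have : ∀ᵐ t ∂μ, t ∈ μ.support := by
    rw [ae_iff]
    exact h0
  filter_upwards [this] with t ht using hb.2 ht

theorem cmp_wkTr_ae {μ : Measure ℝ} {b T : ℝ} (hb : IsGreatest μ.support b) (hT : b ≤ T) (c : ℝ) :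
    ∫ t, wkTr T c t ∂μ = ∫ t, max (t - c) 0 ∂μ := by
  refine integral_congr_ae ?_
  filter_upwards [cmp_ae_le hb] with t ht
  rw [wkTr_apply, min_eq_left (by linarith)]

/-- The increasing convex order forces the order of the maxima of the supports. -/
theorem cmp_max_le {μ μ' : Measure ℝ} [IsProbabilityMeasure μ] [IsProbabilityMeasure μ'] {b b' : ℝ}
    (hb : IsGreatest μ.support b) (hb' : IsGreatest μ'.support b')
    (horder : ∀ c : ℝ, ∫ t, max (t - c) 0 ∂μ ≤ ∫ t, max (t - c) 0 ∂μ') : b ≤ b' := by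
  by_contra hlt
  push Not at hlt
  have h1 : ∫ t, max (t - b') 0 ∂μ' = 0 := by
    have : (fun t => max (t - b') 0) =ᵐ[μ'] fun _ => (0 : ℝ) := by
      filter_upwards [cmp_ae_le hb'] with t ht
      exact max_eq_right (by linarith)
    rw [integral_congr_ae this]
    simp
  have hgap := wk_gap hb.1 (show (0 : ℝ) < 4 * (b - b') by linarith)
    (c := b' - (b - b')) (by linarith)
  have e1 : b' - (b - b') + 4 * (b - b') / 4 = b' := by ring
  rw [e1] at hgap
  have e2 : ∫ t, wkTr b b' t ∂μ = ∫ t, max (t - b') 0 ∂μ := cmp_wkTr_ae hb le_rfl b'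
  have h2 : 0 ≤ ∫ t, wkTr b (b' - (b - b') + 4 * (b - b')) t ∂μ :=
    integral_nonneg (fun t => by rw [wkTr_apply]; exact le_max_right _ _)
  have := horder b'
  linarith

/-- The level inequalities for two measures in the increasing convex order. -/
theorem cmp_slack {μ μ' : Measure ℝ} [IsProbabilityMeasure μ] [IsProbabilityMeasure μ']
    {a b a' b' : ℝ} (hb : IsGreatest μ.support b) (hb' : IsGreatest μ'.support b')
    (horder : ∀ c : ℝ, ∫ t, max (t - c) 0 ∂μ ≤ ∫ t, max (t - c) 0 ∂μ')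
    {lam lam' : ∀ N : ℕ, Fin N → ℝ} (h : Admissible μ a b lam) (h' : Admissible μ' a' b' lam')
    {δ : ℝ} (hδ : 0 < δ) :
    ∀ᶠ N : ℕ in atTop, ∀ c : ℝ, a' - 1 ≤ c →
      ∑ i, max (lam N i - (c + δ)) 0 ≤ ∑ i, max (lam' N i - c) 0 := by
  have hbb : b ≤ b' := cmp_max_le hb hb' horder
  set η : ℝ := δ / 4 with hη
  have hηpos : 0 < η := by positivity
  -- upper bounds for the entries of `lam`
  have hup : ∀ᶠ N : ℕ in atTop, ∀ i, lam N i < b' + min (δ / 2) 1 := by
    have := h.tendsto_max.eventually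
      (gt_mem_nhds (show b < b' + min (δ / 2) 1 by
        have : 0 < min (δ / 2) 1 := lt_min (by positivity) one_pos
        linarith))
    filter_upwards [this] with N hN i
    exact lt_of_le_of_lt (le_ciSup (Finite.bddAbove_range _) i) hN
  -- the grid
  set cg : ℕ → ℝ := fun j => a' - 1 + j * η with hcg
  set J : ℕ := ⌊(b' - a' + 1) / η⌋₊ + 1 with hJ
  have hgrid : ∀ j ∈ Finset.range J, ∀ᶠ N : ℕ in atTop, cg j ≤ b' - δ / 2 →
      (N : ℝ)⁻¹ * ∑ i, wkTr b' (cg j + δ) (lam N i) <
        (N : ℝ)⁻¹ * ∑ i, wkTr b' (cg j + η) (lam' N i) := by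
    intro j _
    by_cases hj : cg j ≤ b' - δ / 2
    · have hgap : ∫ t, wkTr b' (cg j + δ) t ∂μ < ∫ t, wkTr b' (cg j + η) t ∂μ' := by
        have g1 := wk_gap hb'.1 hδ hj
        have g2 : ∫ t, wkTr b' (cg j + δ) t ∂μ ≤ ∫ t, wkTr b' (cg j + δ) t ∂μ' := by
          rw [cmp_wkTr_ae hb hbb, cmp_wkTr_ae hb' le_rfl]
          exact horder _
        exact lt_of_le_of_lt g2 g1
      have := (h.weak (wkTr b' (cg j + δ))).eventually_lt (h'.weak (wkTr b' (cg j + η))) hgap
      filter_upwards [this] with N hN _ using hN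
    · exact Eventually.of_forall fun N hN => absurd hN hj
  have hgrid' := (Filter.eventually_all_finset (Finset.range J)).2 hgrid
  filter_upwards [hup, hgrid', eventually_gt_atTop 0] with N hN hG hNpos c hc
  by_cases hcase : b' - δ / 2 < c
  · -- large levels
    have h0 : ∑ i, max (lam N i - (c + δ)) 0 = 0 := by
      refine Finset.sum_eq_zero fun i _ => max_eq_right ?_
      have := hN i
      have h2 : min (δ / 2) 1 ≤ δ / 2 := min_le_left _ _
      linarith
    rw [h0]
    exact Finset.sum_nonneg fun i _ => le_max_right _ _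
  · -- levels in the compact range
    push Not at hcase
    set j : ℕ := ⌊(c - (a' - 1)) / η⌋₊ with hj
    have hnn : 0 ≤ (c - (a' - 1)) / η := div_nonneg (by linarith) hηpos.le
    have hj1 : (j : ℝ) * η ≤ c - (a' - 1) := by
      have := Nat.floor_le hnn
      rwa [le_div_iff₀ hηpos] at this
    have hj2 : c - (a' - 1) < ((j : ℝ) + 1) * η := by
      have := Nat.lt_floor_add_one ((c - (a' - 1)) / η)
      rwa [div_lt_iff₀ hηpos] at this
    have hjc1 : cg j ≤ c := by
      simp only [hcg]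
      linarith
    have hjc2 : c ≤ cg j + η := by
      simp only [hcg]
      nlinarith
    have hjJ : j ∈ Finset.range J := by
      rw [Finset.mem_range, hJ, Nat.lt_succ_iff]
      refine Nat.floor_le_floor ?_
      refine div_le_div_of_nonneg_right ?_ hηpos.le
      linarith
    have hg := hG j hjJ (hjc1.trans hcase)
    have hNinv : (0 : ℝ) < (N : ℝ)⁻¹ := inv_pos.mpr (by exact_mod_cast hNpos)
    have hlt := lt_of_mul_lt_mul_left hg hNinv.le
    have hL : ∑ i, max (lam N i - (c + δ)) 0 ≤ ∑ i, wkTr b' (cg j + δ) (lam N i) := by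
      refine Finset.sum_le_sum fun i _ => ?_
      rw [wkTr_apply]
      have hle : lam N i ≤ b' + 1 := by
        have := hN i
        have h2 : min (δ / 2) 1 ≤ 1 := min_le_right _ _
        linarith
      rw [min_eq_left hle]
      exact max_le_max (by linarith) le_rfl
    have hR : ∑ i, wkTr b' (cg j + η) (lam' N i) ≤ ∑ i, max (lam' N i - c) 0 := by
      refine Finset.sum_le_sum fun i _ => ?_
      rw [wkTr_apply]
      refine max_le_max ?_ le_rfl
      linarith [min_le_left (lam' N i) (b' + 1)]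
    exact hL.trans (hlt.le.trans hR)

/-- Exact finite size comparison: the averaged pressure respects weak majorization, expressed
through the positive parts. -/
theorem avg_le_of_levels {N : ℕ} [MeasurableSpace (Matrix.orthogonalGroup (Fin N) ℝ)]
    [BorelSpace (Matrix.orthogonalGroup (Fin N) ℝ)]
    (ν : Measure (Matrix.orthogonalGroup (Fin N) ℝ)) [IsProbabilityMeasure ν]
    [ν.IsMulLeftInvariant] {β : ℝ} (hβ : 0 ≤ β) (x y : Fin N → ℝ)
    (h : ∀ c : ℝ, ∑ i, max (x i - c) 0 ≤ ∑ i, max (y i - c) 0) :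
    avgPressure ν β x ≤ avgPressure ν β y := by
  have hx : Antitone (x ∘ antiSort x) := antitone_antiSort x
  have hy : Antitone (y ∘ antiSort y) := antitone_antiSort y
  have key : ∀ k : ℕ, psum (x ∘ antiSort x) k ≤ psum (y ∘ antiSort y) k := by
    apply psum_le_of_pos _ _ hy
    intro j
    have e1 := Equiv.sum_comp (antiSort x) (fun i => max (x i - (y ∘ antiSort y) j) 0)
    have e2 := Equiv.sum_comp (antiSort y) (fun i => max (y i - (y ∘ antiSort y) j) 0)
    simp only [Function.comp] at e1 e2 ⊢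
    rw [e1, e2]
    exact h _
  have hm := maj_le (avgPressure ν β) (avg_convex ν β) (avg_symm ν β) (avg_mono ν hβ) _ _ hx hy key
  rwa [avg_symm, avg_symm] at hm

/-- Asymptotic comparison of the averaged pressures in the increasing convex order. -/
theorem avg_cmp {μ μ' : Measure ℝ} [IsProbabilityMeasure μ] [IsProbabilityMeasure μ']
    {a b a' b' : ℝ} (hb : IsGreatest μ.support b) (hb' : IsGreatest μ'.support b')
    (horder : ∀ c : ℝ, ∫ t, max (t - c) 0 ∂μ ≤ ∫ t, max (t - c) 0 ∂μ')
    [∀ N : ℕ, MeasurableSpace (Matrix.orthogonalGroup (Fin N) ℝ)]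
    [∀ N : ℕ, BorelSpace (Matrix.orthogonalGroup (Fin N) ℝ)]
    (ν : ∀ N : ℕ, Measure (Matrix.orthogonalGroup (Fin N) ℝ))
    [∀ N : ℕ, IsProbabilityMeasure (ν N)] [∀ N : ℕ, (ν N).IsMulLeftInvariant]
    {β : ℝ} (hβ : 0 ≤ β) {lam lam' : ∀ N : ℕ, Fin N → ℝ}
    (h : Admissible μ a b lam) (h' : Admissible μ' a' b' lam') {ε : ℝ} (hε : 0 < ε) :
    ∀ᶠ N : ℕ in atTop, avgPressure (ν N) β (lam N) ≤ avgPressure (ν N) β (lam' N) + ε := by
  set δ : ℝ := ε / (β + 1) with hδ_def
  have hδ : 0 < δ := by positivity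
  have hδ2 : β * δ / 2 ≤ ε := by
    have : β * δ ≤ ε := by
      rw [hδ_def, mul_div_assoc', div_le_iff₀ (by positivity)]
      nlinarith
    linarith
  have e1 := cmp_slack hb hb' horder h h' hδ
  have e4 : ∀ᶠ N : ℕ in atTop, ∀ i, a' - 1 ≤ lam' N i := by
    have := h'.tendsto_min.eventually (lt_mem_nhds (show a' - 1 < a' by linarith))
    filter_upwards [this] with N hN i
    exact hN.le.trans (ciInf_le (Finite.bddBelow_range _) i)
  filter_upwards [e1, e4, eventually_gt_atTop 0] with N a1 a4 a5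
  have i1 := avg_le_of_slack a5 (ν N) hβ (lam N) (lam' N) δ (a' - 1) a4 a1
  linarith

end Vale.Agent.Lib.P166
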